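import Vale.Agent.P154.D8.K2.Data
import Vale.Agent.P154.ApxLemma

set_option maxRecDepth 100000

namespace Vale.Agent.P154.D8.K2

open PolyR Cert InT OutT

/-- The quotient polynomial for `j = 1`. -/
noncomputable def S1 (u : ℝ) : ℝ :=
  (185 / 16777216 : ℝ) * u ^ 0 + (-1793 / 8388608 : ℝ) * u ^ 1 + (-27257 / 16777216 : ℝ) * u ^ 2 + (82195 / 8388608 : ℝ) * u ^ 3 + (485969 / 16777216 : ℝ) * u ^ 4 + (-1135989 / 8388608 : ℝ) * u ^ 5 + (-1249799 / 16777216 : ℝ) * u ^ 6 + (10097989 / 16777216 : ℝ) * u ^ 7 + (-7999499 / 16777216 : ℝ) * u ^ 8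

/-- Certificate polynomial. -/
def lpu1 : List ITm := [⟨(-41072700796007666212972253561019897460937500),0,0⟩,⟨(-955019433028780895256204530596733093261718750),1,0⟩,⟨(-4632340512741604470647871494293212890625000000),2,0⟩,⟨19323194438854190940968692302703857421875000000,3,0⟩,⟨39508742023591590612886696457862854003906250000,4,0⟩,⟨(-127752634183728375751026835473335266113281250000),5,0⟩,⟨(-48605679818427913450816871704001921850585937500),6,0⟩,⟨271620690517269799745422203197721826304300156250,7,0⟩,⟨(-148823615465524301749145449955979020028902354859),8,0⟩]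

/-- Certificate tree. -/
def tpu1 : OutT := (A (A (A (A (O l) (O l)) (O l)) (A (A (O l) (A (O l) (O l))) (A (A (O l) (A (O l) (O l))) (A (A (A (O l) (O l)) (A (O l) (O l))) (A (A (O l) (A (O l) (O l))) (A (A (O l) (O l)) (A (O l) (O l)))))))) (A (A (A (A (A (A (A (O l) (O l)) (A (O l) (O l))) (A (A (O l) (O l)) (A (O l) (O l)))) (A (A (A (O l) (O l)) (O l)) (A (O l) (O l)))) (A (A (A (O l) (O l)) (A (O l) (O l))) (A (O l) (O l)))) (A (A (A (O l) (O l)) (A (O l) (O l))) (A (A (O l) (O l)) (A (O l) (O l))))) (A (A (A (A (O l) (O l)) (A (O l) (O l))) (A (A (A (O l) (O l)) (A (O l) (O l))) (A (A (O l) (O l)) (A (O l) (O l))))) (A (A (A (A (O l) (A (O l) (O l))) (A (A (O l) (O l)) (A (O l) (O l)))) (A (A (A (O l) (A (O l) (O l))) (A (A (O l) (O l)) (A (O l) (O l)))) (A (A (A (O l) (O l)) (A (O l) (A (O l) (O l)))) (A (A (A (O l) (O l)) (A (O l) (O l))) (A (A (O l) (O l)) (A (O l) (O l))))))) (A (A (A (A (A (A (O l) (O l)) (A (O l) (O l))) (A (A (O l) (O l)) (A (O l) (O l)))) (A (A (A (O l) (O l)) (O l)) (A (O l) (O l)))) (A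 (A (A (O l) (O l)) (A (O l) (O l))) (A (O l) (O l)))) (A (A (A (O l) (O l)) (A (O l) (O l))) (A (O l) (O l))))))))

theorem hpu1 (x : ℝ) (h0 : 0 ≤ x) (h1 : x ≤ 1) : evalIL lpu1 x 0 ≤ 0 :=
  uni_le 8 65536 lpu1 (by norm_num) (by norm_num) (by decide +kernel)
    (chkOut_sound (uniPb 8 65536 lpu1) tpu1 0 32768 0 32768 (by decide +kernel)) x h0 h1

/-- Certificate polynomial. -/
def lpl1 : List ITm := [⟨(-172523106911626200599130243062973022460937500),0,0⟩,⟨807287686832580675400095060467720031738281250,1,0⟩,⟨4632340512741604470647871494293212890625000000,2,0⟩,⟨(-19323194438854190940968692302703857421875000000),3,0⟩,⟨(-39508742023591590612886696457862854003906250000),4,0⟩,⟨127752634183728375751026835473335266113281250000,5,0⟩,⟨48605679818427913450816871704001921850585937500,6,0⟩,⟨(-271620690517269799745422203197721826304300156250),7,0⟩,⟨148823615465524301749145449955979020028902354859,8,0⟩]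

/-- Certificate tree. -/
def tpl1 : OutT := (A (A (A (A (O l) (O l)) (A (A (O l) (A (O l) (O l))) (A (A (A (O l) (O l)) (A (O l) (O l))) (A (A (O l) (O l)) (O l))))) (A (A (A (A (O l) (O l)) (O l)) (A (O l) (O l))) (A (A (O l) (O l)) (A (O l) (O l))))) (A (A (A (A (O l) (O l)) (A (A (O l) (O l)) (A (O l) (O l)))) (A (A (A (O l) (O l)) (A (A (O l) (O l)) (A (O l) (O l)))) (A (A (A (O l) (O l)) (A (O l) (A (O l) (O l)))) (A (A (A (O l) (O l)) (A (O l) (O l))) (A (A (A (O l) (O l)) (A (O l) (O l))) (A (A (O l) (O l)) (A (O l) (O l)))))))) (A (A (A (A (A (A (A (O l) (O l)) (A (O l) (O l))) (A (A (O l) (O l)) (A (O l) (O l)))) (A (A (A (O l) (O l)) (A (O l) (O l))) (A (A (O l) (O l)) (A (O l) (O l))))) (A (A (A (A (O l) (O l)) (A (O l) (O l))) (A (O l) (O l))) (A (A (O l) (O l)) (A (O l) (O l))))) (A (A (A (A (O l) (O l)) (A (O l) (O l))) (A (O l) (O l))) (A (A (O l) (O l)) (A (O l) (O l))))) (A (A (A (A (O l) (O l)) (A (O l) (O l))) (A (A (O l) (O l)) (A (O l) (O l)))) (A (A (A (O l) (O l)) (A (O l) (O l))) (A (A (O l) (O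 l)) (A (A (O l) (O l)) (A (O l) (A (O l) (A (O l) (O l)))))))))))

theorem hpl1 (x : ℝ) (h0 : 0 ≤ x) (h1 : x ≤ 1) : evalIL lpl1 x 0 ≤ 0 :=
  uni_le 8 65536 lpl1 (by norm_num) (by norm_num) (by decide +kernel)
    (chkOut_sound (uniPb 8 65536 lpl1) tpl1 0 32768 0 32768 (by decide +kernel)) x h0 h1

/-- Certificate polynomial. -/
def lnu1 : List ITm := [⟨(-10514611403777962550520896911621093750000000000),0,0⟩,⟨122242487427683954592794179916381835937500000000,1,0⟩,⟨(-296469792815462686121463775634765625000000000000),2,0⟩,⟨(-618342222043334110110998153686523437500000000000),3,0⟩,⟨632139872377465449806187143325805664062500000000,4,0⟩,⟨1022021073469827006008214683786682128906250000000,5,0⟩,⟨(-194422719273711653803267486816007687402343750000),6,0⟩,⟨(-543241381034539599490844406395443652608600312500),7,0⟩,⟨(-148823615465524301749145449955979020028902354859),8,0⟩]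

/-- Certificate tree. -/
def tnu1 : OutT := (A (A (A (A (O l) (A (O l) (O l))) (A (A (O l) (O l)) (A (O l) (O l)))) (A (A (O l) (O l)) (O l))) (A (A (O l) (A (O l) (O l))) (A (A (A (O l) (O l)) (A (O l) (A (O l) (O l)))) (A (A (A (A (O l) (O l)) (A (O l) (A (O l) (O l)))) (A (A (O l) (O l)) (A (O l) (O l)))) (A (A (O l) (O l)) (O l))))))

theorem hnu1 (x : ℝ) (h0 : 0 ≤ x) (h1 : x ≤ 1) : evalIL lnu1 x 0 ≤ 0 :=
  uni_le 8 65536 lnu1 (by norm_num) (by norm_num) (by decide +kernel)
    (chkOut_sound (uniPb 8 65536 lnu1) tnu1 0 32768 0 32768 (by decide +kernel)) x h0 h1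

/-- Certificate polynomial. -/
def lnl1 : List ITm := [⟨(-44165915369376307353377342224121093750000000000),0,0⟩,⟨(-103332823914570326451212167739868164062500000000),1,0⟩,⟨296469792815462686121463775634765625000000000000,2,0⟩,⟨618342222043334110110998153686523437500000000000,3,0⟩,⟨(-632139872377465449806187143325805664062500000000),4,0⟩,⟨(-1022021073469827006008214683786682128906250000000),5,0⟩,⟨194422719273711653803267486816007687402343750000,6,0⟩,⟨543241381034539599490844406395443652608600312500,7,0⟩,⟨148823615465524301749145449955979020028902354859,8,0⟩]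

/-- Certificate tree. -/
def tnl1 : OutT := (A (A (O l) (A (O l) (A (O l) (O l)))) (A (A (A (A (O l) (O l)) (A (A (O l) (O l)) (A (A (O l) (O l)) (A (O l) (O l))))) (A (A (A (O l) (O l)) (A (O l) (O l))) (A (O l) (O l)))) (A (A (A (O l) (O l)) (O l)) (A (O l) (A (O l) (A (O l) (A (O l) (A (O l) (O l)))))))))

theorem hnl1 (x : ℝ) (h0 : 0 ≤ x) (h1 : x ≤ 1) : evalIL lnl1 x 0 ≤ 0 :=
  uni_le 8 65536 lnl1 (by norm_num) (by norm_num) (by decide +kernel)
    (chkOut_sound (uniPb 8 65536 lnl1) tnl1 0 32768 0 32768 (by decide +kernel)) x h0 h1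

theorem apx1 (u : ℝ) (h0 : -(108069 / 312500 : ℝ) ≤ u) (h1 : u ≤ 2 * (108069 / 312500 : ℝ)) :
    |((1 + u)⁻¹) ^ 1 - evalZ Ax.p1 (3 * u) / Ax.D1| ≤ Ax.e1 * |u| ^ Ax.m1 := by
  have hu : 0 < 1 + u := by norm_num at h0 ⊢; linarith
  refine apx_of_S 1 2 _ (S1 u) _ u hu ?_ ?_ ?_
  · simp only [Ax, evalZ_cons, evalZ_nil, S1]
    push_cast
    ring
  · rcases le_total 0 u with hs | hs
    · have hx := hpu1 (u / (2 * (108069 / 312500 : ℝ))) (by positivity) (by rw [div_le_one (by norm_num)]; exact h1)
      have e : evalIL lpu1 (u / (2 * (108069 / 312500 : ℝ))) 0 = 5960464477539062500000000000000000000000000000000 * (S1 u - Ax.e1 * (1 + u) ^ 1) := by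
        simp only [lpu1, evalIL, List.map_cons, List.map_nil, List.sum_cons, List.sum_nil, S1, Ax]
        push_cast
        ring
      rw [e] at hx
      have := cmul_nonpos (by norm_num) hx
      simp only [Ax] at this ⊢
      linarith
    · have hx := hnu1 (-u / (108069 / 312500 : ℝ)) (by apply div_nonneg <;> [linarith; norm_num]) (by rw [div_le_one (by norm_num)]; linarith)
      have e : evalIL lnu1 (-u / (108069 / 312500 : ℝ)) 0 = 1525878906250000000000000000000000000000000000000000 * (S1 u - Ax.e1 * (1 + u) ^ 1) := by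
        simp only [lnu1, evalIL, List.map_cons, List.map_nil, List.sum_cons, List.sum_nil, S1, Ax]
        push_cast
        ring
      rw [e] at hx
      have := cmul_nonpos (by norm_num) hx
      simp only [Ax] at this ⊢
      linarith
  · rcases le_total 0 u with hs | hs
    · have hx := hpl1 (u / (2 * (108069 / 312500 : ℝ))) (by positivity) (by rw [div_le_one (by norm_num)]; exact h1)
      have e : evalIL lpl1 (u / (2 * (108069 / 312500 : ℝ))) 0 = 5960464477539062500000000000000000000000000000000 * (-S1 u - Ax.e1 * (1 + u) ^ 1) := by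
        simp only [lpl1, evalIL, List.map_cons, List.map_nil, List.sum_cons, List.sum_nil, S1, Ax]
        push_cast
        ring
      rw [e] at hx
      have := cmul_nonpos (by norm_num) hx
      simp only [Ax] at this ⊢
      linarith
    · have hx := hnl1 (-u / (108069 / 312500 : ℝ)) (by apply div_nonneg <;> [linarith; norm_num]) (by rw [div_le_one (by norm_num)]; linarith)
      have e : evalIL lnl1 (-u / (108069 / 312500 : ℝ)) 0 = 1525878906250000000000000000000000000000000000000000 * (-S1 u - Ax.e1 * (1 + u) ^ 1) := by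
        simp only [lnl1, evalIL, List.map_cons, List.map_nil, List.sum_cons, List.sum_nil, S1, Ax]
        push_cast
        ring
      rw [e] at hx
      have := cmul_nonpos (by norm_num) hx
      simp only [Ax] at this ⊢
      linarith

/-- The quotient polynomial for `j = 2`. -/
noncomputable def S2 (u : ℝ) : ℝ :=
  (59 / 524288 : ℝ) * u ^ 0 + (-38217 / 16777216 : ℝ) * u ^ 1 + (-319459 / 16777216 : ℝ) * u ^ 2 + (777787 / 8388608 : ℝ) * u ^ 3 + (1673995 / 4194304 : ℝ) * u ^ 4 + (-20111383 / 16777216 : ℝ) * u ^ 5 + (-34872387 / 16777216 : ℝ) * u ^ 6 + (97151791 / 16777216 : ℝ) * u ^ 7 + (182701 / 262144 : ℝ) * u ^ 8 + (-78581663 / 16777216 : ℝ) * u ^ 9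

/-- Certificate polynomial. -/
def lpu2 : List ITm := [⟨(-74993830589953347498521907255053520202636718750000),0,0⟩,⟨(-1716009450336564157169050304219126701354980468750000),1,0⟩,⟨(-8569168436204743599660105246584862470626831054687500),2,0⟩,⟨28570262472270752116543008014559745788574218750000000,3,0⟩,⟨85058713369296967409468589350581169128417968750000000,4,0⟩,⟨(-176696401448419459050165575126211047172546386718750000),5,0⟩,⟨(-211908584528680703039472674229929231060028076171875000),6,0⟩,⟨408318251479475849651213831595339839219064916992187500,7,0⟩,⟨33989907829436262763293829841602984059752353410000000,8,0⟩,⟨(-157990659035967004448671854244317918867031406869564827),9,0⟩]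

/-- Certificate tree. -/
def tpu2 : OutT := (A (A (A (A (O l) (O l)) (O l)) (A (A (O l) (A (O l) (O l))) (A (A (O l) (A (O l) (O l))) (A (A (O l) (A (O l) (O l))) (A (A (O l) (A (O l) (O l))) (A (A (O l) (O l)) (A (O l) (O l)))))))) (A (A (A (A (A (A (A (O l) (O l)) (A (O l) (O l))) (A (A (O l) (O l)) (O l))) (A (A (O l) (O l)) (A (O l) (O l)))) (A (A (A (O l) (O l)) (O l)) (A (O l) (O l)))) (A (A (A (O l) (O l)) (A (O l) (O l))) (A (A (O l) (O l)) (A (O l) (O l))))) (A (A (A (A (O l) (O l)) (A (O l) (O l))) (A (A (O l) (O l)) (A (A (O l) (O l)) (A (O l) (O l))))) (A (A (A (A (O l) (O l)) (A (A (O l) (O l)) (A (O l) (O l)))) (A (A (A (O l) (O l)) (A (O l) (A (O l) (O l)))) (A (A (A (O l) (O l)) (A (O l) (O l))) (A (A (A (O l) (O l)) (A (O l) (O l))) (A (A (O l) (O l)) (A (O l) (O l))))))) (A (A (A (A (A (A (O l) (O l)) (A (O l) (O l))) (A (A (O l) (O l)) (O l))) (A (A (O l) (O l)) (A (O l) (O l)))) (A (A (A (O l) (O l)) (O l)) (A (O l) (O l)))) (A (A (A (O l) (O l)) (O l)) (A (O l) (O l))))))))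

theorem hpu2 (x : ℝ) (h0 : 0 ≤ x) (h1 : x ≤ 1) : evalIL lpu2 x 0 ≤ 0 :=
  uni_le 9 65536 lpu2 (by norm_num) (by norm_num) (by decide +kernel)
    (chkOut_sound (uniPb 9 65536 lpu2) tpu2 0 32768 0 32768 (by decide +kernel)) x h0 h1

/-- Certificate polynomial. -/
def lpl2 : List ITm := [⟨(-284603937639182902330503566190600395202636718750000),0,0⟩,⟨1218583898787706232269556494429707527160644531250000,1,0⟩,⟨8397148334027676312985022377688437700271606445312500,2,0⟩,⟨(-28570262472270752116543008014559745788574218750000000),3,0⟩,⟨(-85058713369296967409468589350581169128417968750000000),4,0⟩,⟨176696401448419459050165575126211047172546386718750000,5,0⟩,⟨211908584528680703039472674229929231060028076171875000,6,0⟩,⟨(-408318251479475849651213831595339839219064916992187500),7,0⟩,⟨(-33989907829436262763293829841602984059752353410000000),8,0⟩,⟨157990659035967004448671854244317918867031406869564827,9,0⟩]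

/-- Certificate tree. -/
def tpl2 : OutT := (A (A (A (A (O l) (O l)) (A (A (O l) (A (O l) (O l))) (A (A (A (O l) (O l)) (A (O l) (O l))) (A (O l) (O l))))) (A (A (A (A (O l) (O l)) (O l)) (A (O l) (O l))) (A (A (O l) (O l)) (A (O l) (O l))))) (A (A (A (A (O l) (O l)) (A (O l) (A (O l) (O l)))) (A (A (A (O l) (O l)) (A (O l) (A (O l) (O l)))) (A (A (A (O l) (O l)) (A (O l) (O l))) (A (A (A (O l) (O l)) (A (O l) (O l))) (A (A (O l) (O l)) (A (A (O l) (O l)) (A (O l) (O l)))))))) (A (A (A (A (A (A (A (O l) (O l)) (A (O l) (O l))) (A (A (O l) (O l)) (A (O l) (O l)))) (A (A (A (O l) (O l)) (A (O l) (O l))) (A (A (O l) (O l)) (A (O l) (O l))))) (A (A (A (O l) (O l)) (A (O l) (O l))) (A (A (O l) (O l)) (A (O l) (O l))))) (A (A (A (O l) (O l)) (A (O l) (O l))) (A (A (O l) (O l)) (A (O l) (O l))))) (A (A (A (A (O l) (O l)) (A (O l) (O l))) (A (O l) (O l))) (A (A (A (O l) (O l)) (A (O l) (O l))) (A (A (O l) (O l)) (A (A (O l) (O l)) (A (O l) (A (O l) (A (O l) (O l)))))))))))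

theorem hpl2 (x : ℝ) (h0 : 0 ≤ x) (h1 : x ≤ 1) : evalIL lpl2 x 0 ≤ 0 :=
  uni_le 9 65536 lpl2 (by norm_num) (by norm_num) (by decide +kernel)
    (chkOut_sound (uniPb 9 65536 lpl2) tpl2 0 32768 0 32768 (by decide +kernel)) x h0 h1

/-- Certificate polynomial. -/
def lnu2 : List ITm := [⟨(-38396841262056113919243216514587402343750000000000000),0,0⟩,⟨439298419286160424235276877880096435546875000000000000,1,0⟩,⟨(-1096853559834207180756493471562862396240234375000000000),2,0⟩,⟨(-1828496798225328135458752512931823730468750000000000000),3,0⟩,⟨2721878827817502957102994859218597412109375000000000000,4,0⟩,⟨2827142423174711344802649202019376754760742187500000000,5,0⟩,⟨(-1695268676229445624315781393839433848480224609375000000),6,0⟩,⟨(-1633273005917903398604855326381359356876259667968750000),7,0⟩,⟨67979815658872525526587659683205968119504706820000000,8,0⟩,⟨157990659035967004448671854244317918867031406869564827,9,0⟩]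

/-- Certificate tree. -/
def tnu2 : OutT := (A (A (A (A (O l) (O l)) (A (A (O l) (O l)) (A (O l) (O l)))) (A (A (O l) (O l)) (O l))) (A (A (O l) (A (O l) (O l))) (A (A (A (O l) (O l)) (A (O l) (A (O l) (A (O l) (O l))))) (A (A (A (A (O l) (O l)) (A (A (O l) (O l)) (A (O l) (O l)))) (A (A (A (O l) (O l)) (O l)) (A (O l) (O l)))) (A (A (O l) (O l)) (O l))))))

theorem hnu2 (x : ℝ) (h0 : 0 ≤ x) (h1 : x ≤ 1) : evalIL lnu2 x 0 ≤ 0 :=
  uni_le 9 65536 lnu2 (by norm_num) (by norm_num) (by decide +kernel)
    (chkOut_sound (uniPb 9 65536 lnu2) tnu2 0 32768 0 32768 (by decide +kernel)) x h0 h1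

/-- Certificate polynomial. -/
def lnl2 : List ITm := [⟨(-145717216071261645993217825889587402343750000000000000),0,0⟩,⟨(-311957478089652795461006462574005126953125000000000000),1,0⟩,⟨1074834986755542568062082864344120025634765625000000000,2,0⟩,⟨1828496798225328135458752512931823730468750000000000000,3,0⟩,⟨(-2721878827817502957102994859218597412109375000000000000),4,0⟩,⟨(-2827142423174711344802649202019376754760742187500000000),5,0⟩,⟨1695268676229445624315781393839433848480224609375000000,6,0⟩,⟨1633273005917903398604855326381359356876259667968750000,7,0⟩,⟨(-67979815658872525526587659683205968119504706820000000),8,0⟩,⟨(-157990659035967004448671854244317918867031406869564827),9,0⟩]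

/-- Certificate tree. -/
def tnl2 : OutT := (A (A (O l) (A (O l) (A (O l) (O l)))) (A (A (A (A (O l) (O l)) (A (A (O l) (O l)) (A (A (O l) (O l)) (A (O l) (O l))))) (A (A (A (A (O l) (O l)) (O l)) (A (O l) (O l))) (A (O l) (O l)))) (A (A (A (O l) (O l)) (O l)) (A (A (O l) (O l)) (A (O l) (A (O l) (A (O l) (A (O l) (O l)))))))))

theorem hnl2 (x : ℝ) (h0 : 0 ≤ x) (h1 : x ≤ 1) : evalIL lnl2 x 0 ≤ 0 :=
  uni_le 9 65536 lnl2 (by norm_num) (by norm_num) (by decide +kernel)
    (chkOut_sound (uniPb 9 65536 lnl2) tnl2 0 32768 0 32768 (by decide +kernel)) x h0 h1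

theorem apx2 (u : ℝ) (h0 : -(108069 / 312500 : ℝ) ≤ u) (h1 : u ≤ 2 * (108069 / 312500 : ℝ)) :
    |((1 + u)⁻¹) ^ 2 - evalZ Ax.p2 (3 * u) / Ax.D2| ≤ Ax.e2 * |u| ^ Ax.m2 := by
  have hu : 0 < 1 + u := by norm_num at h0 ⊢; linarith
  refine apx_of_S 2 2 _ (S2 u) _ u hu ?_ ?_ ?_
  · simp only [Ax, evalZ_cons, evalZ_nil, S2]
    push_cast
    ring
  · rcases le_total 0 u with hs | hs
    · have hx := hpu2 (u / (2 * (108069 / 312500 : ℝ))) (by positivity) (by rw [div_le_one (by norm_num)]; exact h1)
      have e : evalIL lpu2 (u / (2 * (108069 / 312500 : ℝ))) 0 = 931322574615478515625000000000000000000000000000000000 * (S2 u - Ax.e2 * (1 + u) ^ 2) := by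
        simp only [lpu2, evalIL, List.map_cons, List.map_nil, List.sum_cons, List.sum_nil, S2, Ax]
        push_cast
        ring
      rw [e] at hx
      have := cmul_nonpos (by norm_num) hx
      simp only [Ax] at this ⊢
      linarith
    · have hx := hnu2 (-u / (108069 / 312500 : ℝ)) (by apply div_nonneg <;> [linarith; norm_num]) (by rw [div_le_one (by norm_num)]; linarith)
      have e : evalIL lnu2 (-u / (108069 / 312500 : ℝ)) 0 = 476837158203125000000000000000000000000000000000000000000 * (S2 u - Ax.e2 * (1 + u) ^ 2) := by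
        simp only [lnu2, evalIL, List.map_cons, List.map_nil, List.sum_cons, List.sum_nil, S2, Ax]
        push_cast
        ring
      rw [e] at hx
      have := cmul_nonpos (by norm_num) hx
      simp only [Ax] at this ⊢
      linarith
  · rcases le_total 0 u with hs | hs
    · have hx := hpl2 (u / (2 * (108069 / 312500 : ℝ))) (by positivity) (by rw [div_le_one (by norm_num)]; exact h1)
      have e : evalIL lpl2 (u / (2 * (108069 / 312500 : ℝ))) 0 = 931322574615478515625000000000000000000000000000000000 * (-S2 u - Ax.e2 * (1 + u) ^ 2) := by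
        simp only [lpl2, evalIL, List.map_cons, List.map_nil, List.sum_cons, List.sum_nil, S2, Ax]
        push_cast
        ring
      rw [e] at hx
      have := cmul_nonpos (by norm_num) hx
      simp only [Ax] at this ⊢
      linarith
    · have hx := hnl2 (-u / (108069 / 312500 : ℝ)) (by apply div_nonneg <;> [linarith; norm_num]) (by rw [div_le_one (by norm_num)]; linarith)
      have e : evalIL lnl2 (-u / (108069 / 312500 : ℝ)) 0 = 476837158203125000000000000000000000000000000000000000000 * (-S2 u - Ax.e2 * (1 + u) ^ 2) := by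
        simp only [lnl2, evalIL, List.map_cons, List.map_nil, List.sum_cons, List.sum_nil, S2, Ax]
        push_cast
        ring
      rw [e] at hx
      have := cmul_nonpos (by norm_num) hx
      simp only [Ax] at this ⊢
      linarith

/-- The quotient polynomial for `j = 3`. -/
noncomputable def S3 (u : ℝ) : ℝ :=
  (16443 / 4194304 : ℝ) * u ^ 0 + (434755 / 16777216 : ℝ) * u ^ 1 + (-6011195 / 16777216 : ℝ) * u ^ 2 + (-5447149 / 4194304 : ℝ) * u ^ 3 + (43219591 / 8388608 : ℝ) * u ^ 4 + (3055389 / 262144 : ℝ) * u ^ 5 + (-103455987 / 4194304 : ℝ) * u ^ 6 + (-436814023 / 16777216 : ℝ) * u ^ 7 + (447510977 / 16777216 : ℝ) * u ^ 8 + (98395243 / 4194304 : ℝ) * u ^ 9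

/-- Certificate polynomial. -/
def lpu3 : List ITm := [⟨(-188943478918179863512705196626484394073486328125000),0,0⟩,⟨8724147062350029457888922479469329118728637695312500,1,0⟩,⟨(-165136698627529967176030822884058579802513122558593750),2,0⟩,⟨(-401448130797540811672434074353077448904514312744140625),3,0⟩,⟨1098032790661634858221667913906276226043701171875000000,4,0⟩,⟨1718035972205662459132765069952430725097656250000000000,5,0⟩,⟨(-2514678650037646340734007737639157714035034179687500000),6,0⟩,⟨(-1835881111991806181087179963696242133317469409179687500),7,0⟩,⟨1300866653447005909624052886485937631934759700665156250,8,0⟩,⟨791305691129194816999948098610753147139471454940458588,9,0⟩]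

/-- Certificate tree. -/
def tpu3 : OutT := (A (A (A (A (A (A (O l) (O l)) (A (O l) (O l))) (A (O l) (O l))) (A (O l) (O l))) (A (A (O l) (O l)) (A (O l) (O l)))) (A (A (A (A (O l) (O l)) (A (O l) (A (O l) (O l)))) (A (A (A (O l) (A (O l) (O l))) (A (A (O l) (A (O l) (O l))) (A (A (O l) (O l)) (A (O l) (O l))))) (A (A (A (A (O l) (O l)) (A (O l) (O l))) (A (A (O l) (O l)) (O l))) (A (A (O l) (O l)) (A (O l) (O l)))))) (A (A (A (A (O l) (O l)) (A (O l) (O l))) (A (A (O l) (O l)) (O l))) (A (A (O l) (O l)) (A (A (O l) (O l)) (A (O l) (A (O l) (A (O l) (A (O l) (O l))))))))))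

theorem hpu3 (x : ℝ) (h0 : 0 ≤ x) (h1 : x ≤ 1) : evalIL lpu3 x 0 ≤ 0 :=
  uni_le 9 65536 lpu3 (by norm_num) (by norm_num) (by decide +kernel)
    (chkOut_sound (uniPb 9 65536 lpu3) tpu3 0 32768 0 32768 (by decide +kernel)) x h0 h1

/-- Certificate polynomial. -/
def lpl3 : List ITm := [⟨(-7491102356482759461187015403993427753448486328125000),0,0⟩,⟨(-24659664631360156406003625306766480207443237304687500),1,0⟩,⟨154115031759271692557433652837062254548072814941406250,2,0⟩,⟨398907116361731097582285428870818577706813812255859375,3,0⟩,⟨(-1098032790661634858221667913906276226043701171875000000),4,0⟩,⟨(-1718035972205662459132765069952430725097656250000000000),5,0⟩,⟨2514678650037646340734007737639157714035034179687500000,6,0⟩,⟨1835881111991806181087179963696242133317469409179687500,7,0⟩,⟨(-1300866653447005909624052886485937631934759700665156250),8,0⟩,⟨(-791305691129194816999948098610753147139471454940458588),9,0⟩]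

/-- Certificate tree. -/
def tpl3 : OutT := (A (A (A (O l) (A (O l) (O l))) (A (A (A (O l) (O l)) (A (A (O l) (O l)) (A (A (O l) (O l)) (A (O l) (O l))))) (A (A (A (A (O l) (O l)) (O l)) (A (O l) (O l))) (A (O l) (O l))))) (A (A (A (A (O l) (O l)) (A (O l) (O l))) (A (A (O l) (O l)) (A (O l) (O l)))) (A (A (A (O l) (O l)) (A (A (O l) (O l)) (A (O l) (A (O l) (O l))))) (A (A (A (A (O l) (O l)) (A (A (O l) (O l)) (A (O l) (O l)))) (A (A (A (O l) (A (O l) (O l))) (A (A (O l) (O l)) (A (O l) (O l)))) (A (A (O l) (O l)) (A (O l) (O l))))) (A (A (A (A (O l) (O l)) (O l)) (A (O l) (O l))) (A (O l) (O l)))))))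

theorem hpl3 (x : ℝ) (h0 : 0 ≤ x) (h1 : x ≤ 1) : evalIL lpl3 x 0 ≤ 0 :=
  uni_le 9 65536 lpl3 (by norm_num) (by norm_num) (by decide +kernel)
    (chkOut_sound (uniPb 9 65536 lpl3) tpl3 0 32768 0 32768 (by decide +kernel)) x h0 h1

/-- Certificate polynomial. -/
def lnu3 : List ITm := [⟨(-24184765301527022529626265168190002441406250000000000),0,0⟩,⟨(-558345411990401885304891038686037063598632812500000000),1,0⟩,⟨(-5284374356080958949632986332289874553680419921875000000),2,0⟩,⟨6423170092760652986758945189649239182472229003906250000,3,0⟩,⟨8784262325293078865773343311250209808349609375000000000,4,0⟩,⟨(-6872143888822649836531060279809722900390625000000000000),5,0⟩,⟨(-5029357300075292681468015475278315428070068359375000000),6,0⟩,⟨1835881111991806181087179963696242133317469409179687500,7,0⟩,⟨650433326723502954812026443242968815967379850332578125,8,0⟩,⟨(-197826422782298704249987024652688286784867863735114647),9,0⟩]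

/-- Certificate tree. -/
def tnu3 : OutT := (A (A (A (A (O l) (O l)) (O l)) (A (O l) (O l))) (A (A (O l) (A (O l) (O l))) (A (A (A (O l) (O l)) (A (A (O l) (O l)) (A (A (O l) (O l)) (A (O l) (O l))))) (A (A (A (A (O l) (O l)) (A (O l) (O l))) (A (O l) (O l))) (A (A (O l) (O l)) (O l))))))

theorem hnu3 (x : ℝ) (h0 : 0 ≤ x) (h1 : x ≤ 1) : evalIL lnu3 x 0 ≤ 0 :=
  uni_le 9 65536 lnu3 (by norm_num) (by norm_num) (by decide +kernel)
    (chkOut_sound (uniPb 9 65536 lnu3) tnu3 0 32768 0 32768 (by decide +kernel)) x h0 h1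

/-- Certificate polynomial. -/
def lnl3 : List ITm := [⟨(-958861101629793211031937971711158752441406250000000000),0,0⟩,⟨1578218536407050009984232019633054733276367187500000000,1,0⟩,⟨4931681016296694161837876890785992145538330078125000000,2,0⟩,⟨(-6382513861787697561316566861933097243309020996093750000),3,0⟩,⟨(-8784262325293078865773343311250209808349609375000000000),4,0⟩,⟨6872143888822649836531060279809722900390625000000000000,5,0⟩,⟨5029357300075292681468015475278315428070068359375000000,6,0⟩,⟨(-1835881111991806181087179963696242133317469409179687500),7,0⟩,⟨(-650433326723502954812026443242968815967379850332578125),8,0⟩,⟨197826422782298704249987024652688286784867863735114647,9,0⟩]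

/-- Certificate tree. -/
def tnl3 : OutT := (A (A (O l) (A (O l) (A (O l) (A (O l) (A (O l) (O l)))))) (A (A (A (A (A (O l) (O l)) (A (O l) (O l))) (A (O l) (O l))) (A (A (O l) (O l)) (O l))) (A (A (O l) (O l)) (A (O l) (A (O l) (A (O l) (A (O l) (A (O l) (O l)))))))))

theorem hnl3 (x : ℝ) (h0 : 0 ≤ x) (h1 : x ≤ 1) : evalIL lnl3 x 0 ≤ 0 :=
  uni_le 9 65536 lnl3 (by norm_num) (by norm_num) (by decide +kernel)
    (chkOut_sound (uniPb 9 65536 lnl3) tnl3 0 32768 0 32768 (by decide +kernel)) x h0 h1

theorem apx3 (u : ℝ) (h0 : -(108069 / 312500 : ℝ) ≤ u) (h1 : u ≤ 2 * (108069 / 312500 : ℝ)) :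
    |((1 + u)⁻¹) ^ 3 - evalZ Ax.p3 (3 * u) / Ax.D3| ≤ Ax.e3 * |u| ^ Ax.m3 := by
  have hu : 0 < 1 + u := by norm_num at h0 ⊢; linarith
  refine apx_of_S 3 2 _ (S3 u) _ u hu ?_ ?_ ?_
  · simp only [Ax, evalZ_cons, evalZ_nil, S3]
    push_cast
    ring
  · rcases le_total 0 u with hs | hs
    · have hx := hpu3 (u / (2 * (108069 / 312500 : ℝ))) (by positivity) (by rw [div_le_one (by norm_num)]; exact h1)
      have e : evalIL lpu3 (u / (2 * (108069 / 312500 : ℝ))) 0 = 931322574615478515625000000000000000000000000000000000 * (S3 u - Ax.e3 * (1 + u) ^ 3) := by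
        simp only [lpu3, evalIL, List.map_cons, List.map_nil, List.sum_cons, List.sum_nil, S3, Ax]
        push_cast
        ring
      rw [e] at hx
      have := cmul_nonpos (by norm_num) hx
      simp only [Ax] at this ⊢
      linarith
    · have hx := hnu3 (-u / (108069 / 312500 : ℝ)) (by apply div_nonneg <;> [linarith; norm_num]) (by rw [div_le_one (by norm_num)]; linarith)
      have e : evalIL lnu3 (-u / (108069 / 312500 : ℝ)) 0 = 119209289550781250000000000000000000000000000000000000000 * (S3 u - Ax.e3 * (1 + u) ^ 3) := by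
        simp only [lnu3, evalIL, List.map_cons, List.map_nil, List.sum_cons, List.sum_nil, S3, Ax]
        push_cast
        ring
      rw [e] at hx
      have := cmul_nonpos (by norm_num) hx
      simp only [Ax] at this ⊢
      linarith
  · rcases le_total 0 u with hs | hs
    · have hx := hpl3 (u / (2 * (108069 / 312500 : ℝ))) (by positivity) (by rw [div_le_one (by norm_num)]; exact h1)
      have e : evalIL lpl3 (u / (2 * (108069 / 312500 : ℝ))) 0 = 931322574615478515625000000000000000000000000000000000 * (-S3 u - Ax.e3 * (1 + u) ^ 3) := by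
        simp only [lpl3, evalIL, List.map_cons, List.map_nil, List.sum_cons, List.sum_nil, S3, Ax]
        push_cast
        ring
      rw [e] at hx
      have := cmul_nonpos (by norm_num) hx
      simp only [Ax] at this ⊢
      linarith
    · have hx := hnl3 (-u / (108069 / 312500 : ℝ)) (by apply div_nonneg <;> [linarith; norm_num]) (by rw [div_le_one (by norm_num)]; linarith)
      have e : evalIL lnl3 (-u / (108069 / 312500 : ℝ)) 0 = 119209289550781250000000000000000000000000000000000000000 * (-S3 u - Ax.e3 * (1 + u) ^ 3) := by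
        simp only [lnl3, evalIL, List.map_cons, List.map_nil, List.sum_cons, List.sum_nil, S3, Ax]
        push_cast
        ring
      rw [e] at hx
      have := cmul_nonpos (by norm_num) hx
      simp only [Ax] at this ⊢
      linarith

/-- The quotient polynomial for `j = 4`. -/
noncomputable def S4 (u : ℝ) : ℝ :=
  (137453 / 16777216 : ℝ) * u ^ 0 + (5679869 / 8388608 : ℝ) * u ^ 1 + (28477135 / 16777216 : ℝ) * u ^ 2 + (-248732533 / 16777216 : ℝ) * u ^ 3 + (-144485059 / 4194304 : ℝ) * u ^ 4 + (292894453 / 4194304 : ℝ) * u ^ 5 + (2350721859 / 16777216 : ℝ) * u ^ 6 + (-818073301 / 16777216 : ℝ) * u ^ 7 + (-2898943443 / 16777216 : ℝ) * u ^ 8 + (-299225433 / 4194304 : ℝ) * u ^ 9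

/-- Certificate polynomial. -/
def lpu4 : List ITm := [⟨(-21319621415494260929790470981970429420471191406250000),0,0⟩,⟨148535036126373753972984559368342161178588867187500000,1,0⟩,⟨305959944036175659363152590231038630008697509765625000,2,0⟩,⟨(-2317422257670410116563734845840372145175933837890625000),3,0⟩,⟨(-3676525301698232879226474853433319367468357086181640625),4,0⟩,⟨5146676968889034152753606819185134172439575195312500000,5,0⟩,⟨7142300608233656919819915900013965712697982788085937500,6,0⟩,⟨(-1719135882149423998132716862986384669361111926269531250),7,0⟩,⟨(-4213459612218127925035120099817833306247836506168984375),8,0⟩,⟨(-1203202415301203016786925516228103166069324395569096314),9,0⟩]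

/-- Certificate tree. -/
def tpu4 : OutT := (A (A (A (A (O l) (O l)) (A (A (O l) (O l)) (A (A (O l) (O l)) (O l)))) (A (A (O l) (O l)) (A (O l) (O l)))) (A (A (A (O l) (O l)) (A (O l) (O l))) (A (A (A (O l) (O l)) (A (A (O l) (O l)) (A (A (O l) (O l)) (A (O l) (O l))))) (A (A (A (A (A (O l) (O l)) (A (O l) (O l))) (A (O l) (O l))) (A (A (O l) (O l)) (O l))) (A (A (O l) (O l)) (O l))))))

theorem hpu4 (x : ℝ) (h0 : 0 ≤ x) (h1 : x ≤ 1) : evalIL lpu4 x 0 ≤ 0 :=
  uni_le 9 65536 lpu4 (by norm_num) (by norm_num) (by decide +kernel)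
    (chkOut_sound (uniPb 9 65536 lpu4) tpu4 0 32768 0 32768 (by decide +kernel)) x h0 h1

/-- Certificate polynomial. -/
def lpl4 : List ITm := [⟨(-28949795685684343027332943165674805641174316406250000),0,0⟩,⟨(-287608716426079880079669237602502107620239257812500000),1,0⟩,⟨(-450243658176741496248496332555077970027923583984375000),2,0⟩,⟨2250893845068994396344589404179714620113372802734375000,3,0⟩,⟨3665021847263957046477094327457598410546779632568359375,4,0⟩,⟨(-5146676968889034152753606819185134172439575195312500000),5,0⟩,⟨(-7142300608233656919819915900013965712697982788085937500),6,0⟩,⟨1719135882149423998132716862986384669361111926269531250,7,0⟩,⟨4213459612218127925035120099817833306247836506168984375,8,0⟩,⟨1203202415301203016786925516228103166069324395569096314,9,0⟩]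

/-- Certificate tree. -/
def tpl4 : OutT := (A (A (A (O l) (O l)) (A (O l) (A (O l) (A (O l) (O l))))) (A (A (A (A (A (O l) (O l)) (A (O l) (A (O l) (O l)))) (A (A (A (O l) (O l)) (A (O l) (O l))) (A (O l) (O l)))) (A (A (A (O l) (O l)) (O l)) (A (O l) (O l)))) (A (A (O l) (O l)) (A (O l) (A (O l) (A (O l) (A (O l) (A (O l) (O l)))))))))

theorem hpl4 (x : ℝ) (h0 : 0 ≤ x) (h1 : x ≤ 1) : evalIL lpl4 x 0 ≤ 0 :=
  uni_le 9 65536 lpl4 (by norm_num) (by norm_num) (by decide +kernel)
    (chkOut_sound (uniPb 9 65536 lpl4) tpl4 0 32768 0 32768 (by decide +kernel)) x h0 h1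

/-- Certificate polynomial. -/
def lnu4 : List ITm := [⟨(-5457823082366530798026360571384429931640625000000000000),0,0⟩,⟨(-19012484624175840508542023599147796630859375000000000000),1,0⟩,⟨19581436418315242199241765774786472320556640625000000000,2,0⟩,⟨74157512245453123730039515066891908645629882812500000000,3,0⟩,⟨(-58824404827171726067623597654933109879493713378906250000),4,0⟩,⟨(-41173415751112273222028854553481073379516601562500000000),5,0⟩,⟨28569202432934627679279663600055862850791931152343750000,6,0⟩,⟨3438271764298847996265433725972769338722223852539062500,7,0⟩,⟨(-4213459612218127925035120099817833306247836506168984375),8,0⟩,⟨601601207650601508393462758114051583034662197784548157,9,0⟩]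

/-- Certificate tree. -/
def tnu4 : OutT := (A (A (O l) (O l)) (A (A (O l) (A (O l) (A (O l) (O l)))) (A (A (A (O l) (A (O l) (O l))) (A (A (A (O l) (O l)) (A (O l) (O l))) (A (A (O l) (O l)) (A (O l) (O l))))) (A (A (A (O l) (O l)) (O l)) (A (O l) (O l))))))

theorem hnu4 (x : ℝ) (h0 : 0 ≤ x) (h1 : x ≤ 1) : evalIL lnu4 x 0 ≤ 0 :=
  uni_le 9 65536 lnu4 (by norm_num) (by norm_num) (by decide +kernel)
    (chkOut_sound (uniPb 9 65536 lnu4) tnu4 0 32768 0 32768 (by decide +kernel)) x h0 h1

/-- Certificate polynomial. -/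
def lnl4 : List ITm := [⟨(-7411147695535191814997233450412750244140625000000000000),0,0⟩,⟨36813915702538224650197662413120269775390625000000000000,1,0⟩,⟨(-28815594123311455759903765283524990081787109375000000000),2,0⟩,⟨(-72028603042207820683026860933750867843627929687500000000),3,0⟩,⟨58640349556223312743633509239321574568748474121093750000,4,0⟩,⟨41173415751112273222028854553481073379516601562500000000,5,0⟩,⟨(-28569202432934627679279663600055862850791931152343750000),6,0⟩,⟨(-3438271764298847996265433725972769338722223852539062500),7,0⟩,⟨4213459612218127925035120099817833306247836506168984375,8,0⟩,⟨(-601601207650601508393462758114051583034662197784548157),9,0⟩]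

/-- Certificate tree. -/
def tnl4 : OutT := (A (A (A (O l) (O l)) (A (A (O l) (A (O l) (O l))) (A (A (O l) (O l)) (A (O l) (O l))))) (A (A (A (O l) (O l)) (A (O l) (O l))) (A (A (O l) (O l)) (A (O l) (A (O l) (A (O l) (A (O l) (O l))))))))

theorem hnl4 (x : ℝ) (h0 : 0 ≤ x) (h1 : x ≤ 1) : evalIL lnl4 x 0 ≤ 0 :=
  uni_le 9 65536 lnl4 (by norm_num) (by norm_num) (by decide +kernel)
    (chkOut_sound (uniPb 9 65536 lnl4) tnl4 0 32768 0 32768 (by decide +kernel)) x h0 h1

theorem apx4 (u : ℝ) (h0 : -(108069 / 312500 : ℝ) ≤ u) (h1 : u ≤ 2 * (108069 / 312500 : ℝ)) :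
    |((1 + u)⁻¹) ^ 4 - evalZ Ax.p4 (3 * u) / Ax.D4| ≤ Ax.e4 * |u| ^ Ax.m4 := by
  have hu : 0 < 1 + u := by norm_num at h0 ⊢; linarith
  refine apx_of_S 4 2 _ (S4 u) _ u hu ?_ ?_ ?_
  · simp only [Ax, evalZ_cons, evalZ_nil, S4]
    push_cast
    ring
  · rcases le_total 0 u with hs | hs
    · have hx := hpu4 (u / (2 * (108069 / 312500 : ℝ))) (by positivity) (by rw [div_le_one (by norm_num)]; exact h1)
      have e : evalIL lpu4 (u / (2 * (108069 / 312500 : ℝ))) 0 = 465661287307739257812500000000000000000000000000000000 * (S4 u - Ax.e4 * (1 + u) ^ 4) := by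
        simp only [lpu4, evalIL, List.map_cons, List.map_nil, List.sum_cons, List.sum_nil, S4, Ax]
        push_cast
        ring
      rw [e] at hx
      have := cmul_nonpos (by norm_num) hx
      simp only [Ax] at this ⊢
      linarith
    · have hx := hnu4 (-u / (108069 / 312500 : ℝ)) (by apply div_nonneg <;> [linarith; norm_num]) (by rw [div_le_one (by norm_num)]; linarith)
      have e : evalIL lnu4 (-u / (108069 / 312500 : ℝ)) 0 = 119209289550781250000000000000000000000000000000000000000 * (S4 u - Ax.e4 * (1 + u) ^ 4) := by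
        simp only [lnu4, evalIL, List.map_cons, List.map_nil, List.sum_cons, List.sum_nil, S4, Ax]
        push_cast
        ring
      rw [e] at hx
      have := cmul_nonpos (by norm_num) hx
      simp only [Ax] at this ⊢
      linarith
  · rcases le_total 0 u with hs | hs
    · have hx := hpl4 (u / (2 * (108069 / 312500 : ℝ))) (by positivity) (by rw [div_le_one (by norm_num)]; exact h1)
      have e : evalIL lpl4 (u / (2 * (108069 / 312500 : ℝ))) 0 = 465661287307739257812500000000000000000000000000000000 * (-S4 u - Ax.e4 * (1 + u) ^ 4) := by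
        simp only [lpl4, evalIL, List.map_cons, List.map_nil, List.sum_cons, List.sum_nil, S4, Ax]
        push_cast
        ring
      rw [e] at hx
      have := cmul_nonpos (by norm_num) hx
      simp only [Ax] at this ⊢
      linarith
    · have hx := hnl4 (-u / (108069 / 312500 : ℝ)) (by apply div_nonneg <;> [linarith; norm_num]) (by rw [div_le_one (by norm_num)]; linarith)
      have e : evalIL lnl4 (-u / (108069 / 312500 : ℝ)) 0 = 119209289550781250000000000000000000000000000000000000000 * (-S4 u - Ax.e4 * (1 + u) ^ 4) := by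
        simp only [lnl4, evalIL, List.map_cons, List.map_nil, List.sum_cons, List.sum_nil, S4, Ax]
        push_cast
        ring
      rw [e] at hx
      have := cmul_nonpos (by norm_num) hx
      simp only [Ax] at this ⊢
      linarith

/-- The quotient polynomial for `j = 5`. -/
noncomputable def S5 (u : ℝ) : ℝ :=
  (555055 / 16777216 : ℝ) * u ^ 0 + (35485299 / 16777216 : ℝ) * u ^ 1 + (111258913 / 16777216 : ℝ) * u ^ 2 + (-87988761 / 2097152 : ℝ) * u ^ 3 + (-2417848095 / 16777216 : ℝ) * u ^ 4 + (2105360883 / 16777216 : ℝ) * u ^ 5 + (5209706527 / 8388608 : ℝ) * u ^ 6 + (1955631349 / 8388608 : ℝ) * u ^ 7 + (-5606762177 / 8388608 : ℝ) * u ^ 8 + (-1476515775 / 2097152 : ℝ) * u ^ 9 + (-3380559197 / 16777216 : ℝ) * u ^ 10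

/-- Certificate polynomial. -/
def lpu5 : List ITm := [⟨(-19220523610197215447215057793073356151580810546875000000000),0,0⟩,⟨129759997308714902786164202552754431962966918945312500000000,1,0⟩,⟨346658371320726632802688982337713241577148437500000000000000,2,0⟩,⟨(-2099565282863017854051661288394825533032417297363281250000000),3,0⟩,⟨(-4826532802337444967948736382058996241539716720581054687500000),4,0⟩,⟨2886425537116165264175403696637230226770043373107910156250000,5,0⟩,⟨9893048903800296540172399956212194244488477706909179687500000,6,0⟩,⟨2568532077300203225494076599711930657708561408996582031250000,7,0⟩,⟨(-5093206036225369092996307114465645245161744673020361328125000),8,0⟩,⟨(-3710720979035076771790245304910321624943563482223515593750000),9,0⟩,⟨(-734513653973849106279495292324271228061114692302449218479797),10,0⟩]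

/-- Certificate tree. -/
def tpu5 : OutT := (A (A (A (A (O l) (O l)) (A (A (O l) (A (O l) (O l))) (A (O l) (O l)))) (A (A (O l) (O l)) (A (O l) (O l)))) (A (A (O l) (A (O l) (O l))) (A (A (A (O l) (O l)) (A (A (O l) (O l)) (A (A (O l) (O l)) (A (O l) (O l))))) (A (A (A (A (O l) (O l)) (A (O l) (O l))) (A (A (O l) (O l)) (O l))) (A (A (O l) (O l)) (O l))))))

theorem hpu5 (x : ℝ) (h0 : 0 ≤ x) (h1 : x ≤ 1) : evalIL lpu5 x 0 ≤ 0 :=
  uni_le 10 65536 lpu5 (by norm_num) (by norm_num) (by decide +kernel)
    (chkOut_sound (uniPb 10 65536 lpu5) tpu5 0 32768 0 32768 (by decide +kernel)) x h0 h1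

/-- Certificate polynomial. -/
def lpl5 : List ITm := [⟨(-28849192999780282065103165223263204097747802734375000000000),0,0⟩,⟨(-295995075847071964503243179933633655309677124023437500000000),1,0⟩,⟨(-576608562713516511877287484821863472461700439453125000000000),2,0⟩,⟨1940522164567802433624699460779083892703056335449218750000000,3,0⟩,⟨4771532383934098935084348101263458374887704849243164062500000,4,0⟩,⟨(-2894033652593197203280199315347365243360400199890136718750000),5,0⟩,⟨(-9893048903800296540172399956212194244488477706909179687500000),6,0⟩,⟨(-2568532077300203225494076599711930657708561408996582031250000),7,0⟩,⟨5093206036225369092996307114465645245161744673020361328125000,8,0⟩,⟨3710720979035076771790245304910321624943563482223515593750000,9,0⟩,⟨734513653973849106279495292324271228061114692302449218479797,10,0⟩]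

/-- Certificate tree. -/
def tpl5 : OutT := (A (A (A (O l) (O l)) (A (O l) (A (O l) (A (O l) (O l))))) (A (A (A (A (A (O l) (O l)) (A (O l) (A (O l) (O l)))) (A (A (A (O l) (O l)) (A (O l) (O l))) (A (O l) (O l)))) (A (A (A (O l) (O l)) (O l)) (A (O l) (O l)))) (A (A (O l) (O l)) (A (O l) (A (O l) (A (O l) (A (O l) (A (O l) (O l)))))))))

theorem hpl5 (x : ℝ) (h0 : 0 ≤ x) (h1 : x ≤ 1) : evalIL lpl5 x 0 ≤ 0 :=
  uni_le 10 65536 lpl5 (by norm_num) (by norm_num) (by decide +kernel)
    (chkOut_sound (uniPb 10 65536 lpl5) tpl5 0 32768 0 32768 (by decide +kernel)) x h0 h1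

/-- Certificate polynomial. -/
def lnu5 : List ITm := [⟨(-19681816176841948617948219180107116699218750000000000000000000),0,0⟩,⟨(-66437118622062030226516071707010269165039062500000000000000000),1,0⟩,⟨88744543058106017997488379478454589843750000000000000000000000,2,0⟩,⟨268744356206466285318612644914537668228149414062500000000000000,3,0⟩,⟨(-308898099349596477948719128451775759458541870117187500000000000),4,0⟩,⟨(-92365617187717288453612918292391367256641387939453125000000000),5,0⟩,⟨158288782460804744642758399299395107911815643310546875000000000,6,0⟩,⟨(-20548256618401625803952612797695445261668491271972656250000000),7,0⟩,⟨(-20372824144901476371985228457862580980646978692081445312500000),8,0⟩,⟨7421441958070153543580490609820643249887126964447031187500000,9,0⟩,⟨(-734513653973849106279495292324271228061114692302449218479797),10,0⟩]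

/-- Certificate tree. -/
def tnu5 : OutT := (A (A (O l) (O l)) (A (A (O l) (A (O l) (A (O l) (O l)))) (A (A (A (O l) (A (O l) (O l))) (A (A (A (O l) (O l)) (A (O l) (O l))) (A (A (O l) (O l)) (A (O l) (O l))))) (A (A (A (A (O l) (O l)) (O l)) (A (O l) (O l))) (A (O l) (O l))))))

theorem hnu5 (x : ℝ) (h0 : 0 ≤ x) (h1 : x ≤ 1) : evalIL lnu5 x 0 ≤ 0 :=
  uni_le 10 65536 lnu5 (by norm_num) (by norm_num) (by decide +kernel)
    (chkOut_sound (uniPb 10 65536 lnu5) tnu5 0 32768 0 32768 (by decide +kernel)) x h0 h1

/-- Certificate polynomial. -/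
def lnl5 : List ITm := [⟨(-29541573631775008834665641188621520996093750000000000000000000),0,0⟩,⟨151549478833700845825660508126020431518554687500000000000000000,1,0⟩,⟨(-147611792054660227040585596114397048950195312500000000000000000),2,0⟩,⟨(-248386837064678711503961530979722738265991210937500000000000000),3,0⟩,⟨305378072571782331845398278480861335992813110351562500000000000,4,0⟩,⟨92609076882982310504966378091115687787532806396484375000000000,5,0⟩,⟨(-158288782460804744642758399299395107911815643310546875000000000),6,0⟩,⟨20548256618401625803952612797695445261668491271972656250000000,7,0⟩,⟨20372824144901476371985228457862580980646978692081445312500000,8,0⟩,⟨(-7421441958070153543580490609820643249887126964447031187500000),9,0⟩,⟨734513653973849106279495292324271228061114692302449218479797,10,0⟩]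

/-- Certificate tree. -/
def tnl5 : OutT := (A (A (A (O l) (O l)) (A (A (O l) (A (O l) (O l))) (A (A (O l) (O l)) (A (O l) (O l))))) (A (A (A (O l) (O l)) (A (O l) (O l))) (A (A (O l) (O l)) (A (A (O l) (O l)) (A (O l) (A (O l) (A (O l) (A (O l) (O l)))))))))

theorem hnl5 (x : ℝ) (h0 : 0 ≤ x) (h1 : x ≤ 1) : evalIL lnl5 x 0 ≤ 0 :=
  uni_le 10 65536 lnl5 (by norm_num) (by norm_num) (by decide +kernel)
    (chkOut_sound (uniPb 10 65536 lnl5) tnl5 0 32768 0 32768 (by decide +kernel)) x h0 h1

theorem apx5 (u : ℝ) (h0 : -(108069 / 312500 : ℝ) ≤ u) (h1 : u ≤ 2 * (108069 / 312500 : ℝ)) :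
    |((1 + u)⁻¹) ^ 5 - evalZ Ax.p5 (3 * u) / Ax.D5| ≤ Ax.e5 * |u| ^ Ax.m5 := by
  have hu : 0 < 1 + u := by norm_num at h0 ⊢; linarith
  refine apx_of_S 5 2 _ (S5 u) _ u hu ?_ ?_ ?_
  · simp only [Ax, evalZ_cons, evalZ_nil, S5]
    push_cast
    ring
  · rcases le_total 0 u with hs | hs
    · have hx := hpu5 (u / (2 * (108069 / 312500 : ℝ))) (by positivity) (by rw [div_le_one (by norm_num)]; exact h1)
      have e : evalIL lpu5 (u / (2 * (108069 / 312500 : ℝ))) 0 = 145519152283668518066406250000000000000000000000000000000000 * (S5 u - Ax.e5 * (1 + u) ^ 5) := by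
        simp only [lpu5, evalIL, List.map_cons, List.map_nil, List.sum_cons, List.sum_nil, S5, Ax]
        push_cast
        ring
      rw [e] at hx
      have := cmul_nonpos (by norm_num) hx
      simp only [Ax] at this ⊢
      linarith
    · have hx := hnu5 (-u / (108069 / 312500 : ℝ)) (by apply div_nonneg <;> [linarith; norm_num]) (by rw [div_le_one (by norm_num)]; linarith)
      have e : evalIL lnu5 (-u / (108069 / 312500 : ℝ)) 0 = 149011611938476562500000000000000000000000000000000000000000000 * (S5 u - Ax.e5 * (1 + u) ^ 5) := by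
        simp only [lnu5, evalIL, List.map_cons, List.map_nil, List.sum_cons, List.sum_nil, S5, Ax]
        push_cast
        ring
      rw [e] at hx
      have := cmul_nonpos (by norm_num) hx
      simp only [Ax] at this ⊢
      linarith
  · rcases le_total 0 u with hs | hs
    · have hx := hpl5 (u / (2 * (108069 / 312500 : ℝ))) (by positivity) (by rw [div_le_one (by norm_num)]; exact h1)
      have e : evalIL lpl5 (u / (2 * (108069 / 312500 : ℝ))) 0 = 145519152283668518066406250000000000000000000000000000000000 * (-S5 u - Ax.e5 * (1 + u) ^ 5) := by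
        simp only [lpl5, evalIL, List.map_cons, List.map_nil, List.sum_cons, List.sum_nil, S5, Ax]
        push_cast
        ring
      rw [e] at hx
      have := cmul_nonpos (by norm_num) hx
      simp only [Ax] at this ⊢
      linarith
    · have hx := hnl5 (-u / (108069 / 312500 : ℝ)) (by apply div_nonneg <;> [linarith; norm_num]) (by rw [div_le_one (by norm_num)]; linarith)
      have e : evalIL lnl5 (-u / (108069 / 312500 : ℝ)) 0 = 149011611938476562500000000000000000000000000000000000000000000 * (-S5 u - Ax.e5 * (1 + u) ^ 5) := by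
        simp only [lnl5, evalIL, List.map_cons, List.map_nil, List.sum_cons, List.sum_nil, S5, Ax]
        push_cast
        ring
      rw [e] at hx
      have := cmul_nonpos (by norm_num) hx
      simp only [Ax] at this ⊢
      linarith

theorem hAx : Ax.OK (-(108069 / 312500 : ℝ)) (2 * (108069 / 312500 : ℝ)) where
  e10 := by simp only [Ax]; norm_num
  e20 := by simp only [Ax]; norm_num
  e30 := by simp only [Ax]; norm_num
  e40 := by simp only [Ax]; norm_num
  e50 := by simp only [Ax]; norm_num
  h1 := fun u a b => by simpa using apx1 u a b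
  h2 := apx2
  h3 := apx3
  h4 := apx4
  h5 := apx5

end Vale.Agent.P154.D8.K2
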