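import Vale.Agent.P154.D8.K2.Data
import Vale.Agent.P154.Check2

namespace Vale.Agent.P154.D8.K2

open Cert

/-- Chart (0, 0). -/
def P00 : Pb := chartPb false false Nd w G []

/-- Chart (0, 1). -/
def P01 : Pb := chartPb false true Nd w G []

/-- Chart (1, 0). -/
def P10 : Pb := chartPb true false Nd w G []

/-- Chart (1, 1). -/
def P11 : Pb := chartPb true true Nd w G []

/-- The offset. -/
def KK : ℕ := 85720688574901385675874003924800144844912384936442688595500031069628084089994889799455870305255668650207573833404251746014971622855385123487876620597588598431476542198593847883368596840498969135023633457224371799868655530139190140473324351568616503316569571821492337341283438653220995094697645344555008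

end Vale.Agent.P154.D8.K2
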